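import Vale.Agent.P184.Core
import Vale.Agent.P184.PartPOT

/-! Vanishing of the trace at undistorted classes. -/

namespace Vale.Agent.Results.P184.Twist

open Vale.Agent.P184

theorem result (G : Type) [Group G] :
    (∀ g : G, (HasChar g ∨ (Undistorted g ∧ IsAmenable (Subgroup.centralizer ({g} : Set G)))) →
      ∀ (q : ℕ) (e : Fin q → Fin q → G → ℂ), IsIdem e → tau e g = 0) ∧
    ((∀ g : G, ¬ IsOfFinOrder g →
        HasChar g ∨ (Undistorted g ∧ IsAmenable (Subgroup.centralizer ({g} : Set G)))) →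
      (∃ R : Finset G, ∀ g : G, IsOfFinOrder g → ∃ r ∈ R, IsConj r g) →
      ∀ (q : ℕ) (e : Fin q → Fin q → G → ℂ), IsIdem e →
        ∃ F : Finset G, (∀ f ∈ F, IsOfFinOrder f) ∧
          ∀ g : G, (∀ f ∈ F, ¬ IsConj f g) → tau e g = 0) := by
  have h1 : ∀ g : G, (HasChar g ∨ (Undistorted g ∧
      IsAmenable (Subgroup.centralizer ({g} : Set G)))) →
      ∀ (q : ℕ) (e : Fin q → Fin q → G → ℂ), IsIdem e → tau e g = 0 := fun g hg q e he => by
    obtain ⟨φ, hφ⟩ : ∃ φ, Pot g φ := hg.elim pot_char fun h => pot_amen h.1 h.2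
    exact core hφ he
  refine ⟨h1, fun h ⟨R, hR⟩ q e he => ?_⟩
  classical
  refine ⟨R.filter IsOfFinOrder, fun f hf => (Finset.mem_filter.1 hf).2, fun g hg => ?_⟩
  refine h1 g (h g fun hfin => ?_) q e he
  obtain ⟨r, hr, hc⟩ := hR g hfin
  exact hg r (Finset.mem_filter.2 ⟨hr, hc.symm.isOfFinOrder hfin⟩) hc

end Vale.Agent.Results.P184.Twist
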